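import Vale.Agent.P032.H747.PairD

/-!
# P032: two circles with centres at distance one, palettes at the special time (finite part)

Conventions of `H747/PairD.lean`.  `Q s` : the names of the colours of the point of the slot `s`.
`nb m s` : the neighbouring slots (`m = 0` next, `m = 1` previous, `m = 2` the parallel slot of the
other circle), `dr m s` : the direction of that neighbour at the special time in units of 60 degrees.
`SpQ` : inclusions, third colour, sizes and coincidences at the special time; `CenQ` : the third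
colour and the centre, any time which is not special.
-/

namespace Vale.Agent.P032.H306

open Vale.Agent.P032.H747

/-- names of the colours of the points of the slots -/
abbrev Pq := Fin 2 × Fin 6 → Finset (Fin 6)

/-- the neighbouring slots: next, previous, parallel -/
def nb (m : Fin 3) (s : Fin 2 × Fin 6) : Fin 2 × Fin 6 :=
  if m = 0 then (s.1, s.2 + 1) else if m = 1 then (s.1, s.2 + 5) else (s.1 + 1, s.2)

/-- the directions of the neighbouring slots at the special time -/
def dr (m : Fin 3) (s : Fin 2 × Fin 6) : Fin 6 :=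
  if m = 0 then s.2 + 2 else if m = 1 then s.2 + 4 else if s.1 = 0 then 0 else 3

/-- names of the colours of the centre `k` -/
def cq (π : Fin 6 → Fin 6) (k : Fin 2) : Finset (Fin 6) := {nm π k 0, nm π k 1, nm π k 2, nm π k 3}

/-- **palettes at the special time** -/
structure SpQ (π : Fin 6 → Fin 6) (ty : Fin 3) (E : Fin 2 → Fin 4 → Fin 4 → Bool)
    (τ : Fin 2 × Fin 6 → Bool) (Q : Pq) (h h' : Col) : Prop where
  sp : Sp π ty E τ h h'
  /-- the letters are in the palettes -/
  pal : ∀ s, KK π s.1 (h s) ∪ KK π s.1 (h' s) ⊆ Q s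
  /-- low order -/
  low : ∀ s : Fin 2 × Fin 6, ¬ spc s.1 s.2 → τ s = false → (Q s).card ≤ 3
  /-- the palette of the centre -/
  full : ∀ s : Fin 2 × Fin 6, τ s = true → Q s = cq π s.1
  atY : Q (0, 0) = cq π 1
  atZ : Q (1, 3) = cq π 0
  ap1 : Q (0, 1) = Q (1, 2)
  ap5 : Q (0, 5) = Q (1, 4)
  /-- no inclusion in a neighbour of low order -/
  nsub : ∀ s m, (Q (nb m s)).card ≤ 3 → ¬ Q s ⊆ Q (nb m s)
  /-- third colour, slots -/
  third : ∀ s m m', (Q s).card ≤ 3 → (Q (nb m s)).card ≤ 3 → 2 ≤ (Q s ∩ Q (nb m s)).card →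
    dr m' s ≠ dr m s → dr m' s ≠ dr m s + 3 → Disjoint (Q s \ Q (nb m s)) (Q (nb m' s))
  /-- third colour, centre -/
  cen : ∀ s m, (Q s).card ≤ 3 → (Q (nb m s)).card ≤ 3 → 2 ≤ (Q s ∩ Q (nb m s)).card →
    dr m s ≠ s.2 → dr m s ≠ s.2 + 3 → Disjoint (Q s \ Q (nb m s)) (cq π s.1)

/-- the third colour and the centre at a time which is not special -/
def CenQ (π : Fin 6 → Fin 6) (Q : Pq) : Prop :=
  ∀ s m, (Q s).card ≤ 3 → (Q (nb m s)).card ≤ 3 → 2 ≤ (Q s ∩ Q (nb m s)).card →
    Disjoint (Q s \ Q (nb m s)) (cq π s.1)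

end Vale.Agent.P032.H306
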