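import Vale.Agent.P032.H306.SpD
import Vale.Agent.P032.H93.PrEv
import Vale.Agent.P032.H780.PairSp

/-!
# P032: two circles with centres at distance one, palettes at the special time

`Pr.spq` : at the special time any left and right limit columns and the names of the palettes of the
slot points satisfy `SpQ`; `Pr.cenQ` : the third colour and the centre at the other times;
`Pr.false_ofQ` : contradiction from a class function with palettes.
-/

open Set Filter Topology Metric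

noncomputable section

namespace Vale.Agent.P032.H306

open Vale.Agent.P032.Six Vale.Agent.P032.Sweep Vale.Agent.P032.S5.H767 Vale.Agent.P032.S5.H122
  Vale.Agent.P032.H187 Vale.Agent.P032.H747 Vale.Agent.P032.H93

variable {U : Fin 6 → Set ℂ} {T : ℂ → Set (Fin 6)} {z y : ℂ} {N π : Fin 6 → Fin 6} {ty : Fin 3}
  {E : Fin 2 → Fin 4 → Fin 4 → Bool} {φ u : ℝ}

/-! ### Directions -/

/-- the unit vector of the direction `d` -/
def ev (φ : ℝ) (d : Fin 6) : ℂ := pt 0 (φ + (d.val : ℝ))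

theorem ev_inj {φ : ℝ} {d d' : Fin 6} (h : ev φ d = ev φ d') : d = d' := by
  obtain ⟨n, hn⟩ := pt_eq_iff h
  have h1 : (d.val : ℝ) = (d'.val : ℝ) + 6 * (n : ℝ) := by linarith
  have h2 : ((d.val : ℤ) : ℝ) = (((d'.val : ℤ) + 6 * n : ℤ) : ℝ) := by push_cast; exact h1
  have h3 : (d.val : ℤ) = (d'.val : ℤ) + 6 * n := by exact_mod_cast h2
  apply Fin.ext
  omega

theorem pt_val (c : ℂ) (φ : ℝ) (d d' : Fin 6) (m : ℕ) (hd : d'.val = (d.val + m) % 6) :
    pt c (φ + (d.val : ℝ) + (m : ℝ)) = pt c (φ + (d'.val : ℝ)) := by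
  have h2 : d.val + m = (d.val + m) % 6 + 6 * ((d.val + m) / 6) := (Nat.mod_add_div _ _).symm
  rw [← hd] at h2
  have e : φ + (d.val : ℝ) + (m : ℝ) = φ + ((d.val + m : ℕ) : ℝ) := by push_cast; ring
  rw [e, h2]
  generalize (d.val + m) / 6 = b
  induction b with
  | zero => simp
  | succ b ih =>
    rw [← ih, ← pt_six c (φ + ((d'.val + 6 * b : ℕ) : ℝ))]
    congr 1
    push_cast; ring

theorem ev_add3 (φ : ℝ) (d : Fin 6) : ev φ (d + 3) = - ev φ d := by
  have h1 := pt_val 0 φ d (d + 3) 3 (by revert d; decide)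
  have h2 := pt_three 0 (φ + (d.val : ℝ))
  have h3 : ev φ (d + 3) = pt 0 (φ + ((d + 3 : Fin 6).val : ℝ)) := rfl
  rw [h3, ← h1]
  have e : φ + (d.val : ℝ) + ((3 : ℕ) : ℝ) = φ + (d.val : ℝ) + 3 := by norm_num
  rw [e, h2]
  unfold ev; ring

theorem pos_zero (z y : ℂ) (φ : ℝ) (k : Fin 2) (j : Fin 6) :
    pos (ctr z y) φ 0 (k, j) = ctr z y k + ev φ j := by
  show pt (ctr z y k) (φ + 0 + (j.val : ℝ)) = _
  unfold ev pt
  rw [add_zero, zero_add]

theorem ev_sum (φ : ℝ) (d : Fin 6) : ev φ d + ev φ (d + 2) = ev φ (d + 1) := by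
  have h1 := pt_sum 0 (φ + (d.val : ℝ))
  have h2 := pt_val 0 φ d (d + 2) 2 (by clear h1; revert d; decide)
  have h3 := pt_val 0 φ d (d + 1) 1 (by clear h1 h2; revert d; decide)
  have e2 : φ + (d.val : ℝ) + ((2 : ℕ) : ℝ) = φ + (d.val : ℝ) + 2 := by norm_num
  have e3 : φ + (d.val : ℝ) + ((1 : ℕ) : ℝ) = φ + (d.val : ℝ) + 1 := by norm_num
  rw [e2] at h2
  rw [e3] at h3
  rw [h2, h3, add_zero] at h1
  exact h1

theorem ctr_succ (hy : pt z φ = y) (k : Fin 2) :
    ctr z y (k + 1) = ctr z y k + ev φ (if k = 0 then 0 else 3) := by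
  have h0 : ev φ 0 = y - z := by
    rw [← hy]
    unfold ev pt
    simp
  have hk : k = 0 ∨ k = 1 := two_cases k
  rcases hk with rfl | rfl
  · show y = z + ev φ 0
    rw [h0]; ring
  · show z = y + ev φ 3
    have : ev φ 3 = - ev φ 0 := ev_add3 φ 0
    rw [this, h0]; ring

/-- the step to a neighbouring slot at the special time -/
theorem pos_nb (hy : pt z φ = y) (m : Fin 3) (s : Fin 2 × Fin 6) :
    pos (ctr z y) φ 0 (nb m s) = pos (ctr z y) φ 0 s + ev φ (dr m s) := by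
  obtain ⟨k, j⟩ := s
  have hm : m = 0 ∨ m = 1 ∨ m = 2 := by revert m; decide
  rcases hm with rfl | rfl | rfl
  · show pos (ctr z y) φ 0 (k, j + 1) = pos (ctr z y) φ 0 (k, j) + ev φ (j + 2)
    rw [pos_zero, pos_zero, ← ev_sum φ j]; ring
  · show pos (ctr z y) φ 0 (k, j + 5) = pos (ctr z y) φ 0 (k, j) + ev φ (j + 4)
    have h1 := ev_sum φ (j + 4)
    have e1 : ∀ j : Fin 6, j + 4 + 2 = j := by decide
    have e2 : ∀ j : Fin 6, j + 4 + 1 = j + 5 := by decide
    rw [e1, e2] at h1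
    rw [pos_zero, pos_zero, ← h1]; ring
  · show pos (ctr z y) φ 0 (k + 1, j) =
      pos (ctr z y) φ 0 (k, j) + ev φ (if k = 0 then 0 else 3)
    rw [pos_zero, pos_zero, ctr_succ hy]; ring

/-- the centre from a slot -/
theorem ctr_pos (j : Fin 6) (k : Fin 2) :
    ctr z y k = pos (ctr z y) φ 0 (k, j) + ev φ (j + 3) := by
  rw [pos_zero, ev_add3]; ring

theorem nb_Nb (m : Fin 3) (s : Fin 2 × Fin 6) : Nb s (nb m s) := by
  revert m s; decide

theorem nb_dist (P : Pr U T z y N π ty E) (φ u : ℝ) (m : Fin 3) (s : Fin 2 × Fin 6) :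
    dist (pos (ctr z y) φ u s) (pos (ctr z y) φ u (nb m s)) = 1 :=
  (nb_adj P (nb_Nb m s)).dist φ u

/-! ### The rules for a pair of slots at distance one -/

theorem card_QQ (P : Pr U T z y N π ty E) (s : Fin 2 × Fin 6) :
    (QQ T (ctr z y) N φ u s).card = (T (pos (ctr z y) φ u s)).ncard := card_nm P.inj _

theorem nsub_q (P : Pr U T z y N π ty E) {s t : Fin 2 × Fin 6}
    (hd : dist (pos (ctr z y) φ u s) (pos (ctr z y) φ u t) = 1)
    (h3 : (QQ T (ctr z y) N φ u t).card ≤ 3) :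
    ¬ QQ T (ctr z y) N φ u s ⊆ QQ T (ctr z y) N φ u t := by
  intro hsub
  rw [card_QQ P] at h3
  obtain ⟨x, hx, hx'⟩ := P.irr.not_sub' hd h3
  obtain ⟨i, rfl⟩ := (Finite.injective_iff_surjective.1 P.inj) x
  exact hx' (mem_nm.1 (hsub (mem_nm.2 hx)))

theorem third_q (P : Pr U T z y N π ty E) {s t : Fin 2 × Fin 6}
    (hd : dist (pos (ctr z y) φ u s) (pos (ctr z y) φ u t) = 1)
    (h3 : (QQ T (ctr z y) N φ u s).card ≤ 3) (h3' : (QQ T (ctr z y) N φ u t).card ≤ 3)
    (h2 : 2 ≤ (QQ T (ctr z y) N φ u s ∩ QQ T (ctr z y) N φ u t).card) {v : ℂ}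
    (hv : dist (pos (ctr z y) φ u s) v = 1) (hv1 : v ≠ pos (ctr z y) φ u t)
    (hv2 : v + pos (ctr z y) φ u t ≠ 2 * pos (ctr z y) φ u s) :
    Disjoint (QQ T (ctr z y) N φ u s \ QQ T (ctr z y) N φ u t) (H93.nm N (T v)) := by
  rw [card_QQ P] at h3 h3'
  have h2 : 1 < (T (pos (ctr z y) φ u s) ∩ T (pos (ctr z y) φ u t)).ncard := by
    rw [← card_nm P.inj, nm_inter]; exact h2
  obtain ⟨i, hi, j, hj, hij⟩ := (Set.one_lt_ncard (Set.toFinite _)).1 h2
  obtain ⟨x, hx, hx', hT, hX⟩ := third187 P.irr hd h3 h3' hij hi.1 hj.1 hi.2 hj.2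
  unfold QQ
  rw [← nm_sdiff, nm_disj P.inj, Set.disjoint_left]
  rintro a ⟨ha, ha'⟩ hav
  have : a = x := by
    rw [hT] at ha
    rcases ha with rfl | rfl | ha
    · exact absurd hi.2 ha'
    · exact absurd hj.2 ha'
    · exact ha
  subst this
  exact hX _ hv hv1 hv2 (P.irr.sub _ hav)

theorem nm_ctr (P : Pr U T z y N π ty E) (k : Fin 2) : H93.nm N (T (ctr z y k)) = cq π k := by
  have h2 := (P.ck k).pal
  ext i
  rw [mem_nm, h2]
  unfold cq
  simp only [cn, mem_insert_iff, mem_singleton_iff, Finset.mem_insert, Finset.mem_singleton]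
  rw [P.inj.eq_iff, P.inj.eq_iff, P.inj.eq_iff, P.inj.eq_iff]

/-- the names of the palette of the other centre -/
theorem pos_y (hy : pt z φ = y) : pos (ctr z y) φ 0 (0, 0) = y := by
  have h := ctr_succ hy 0
  rw [pos_zero]
  exact h.symm

theorem pos_z (hy : pt z φ = y) : pos (ctr z y) φ 0 (1, 3) = z := by
  have h := ctr_succ hy 1
  rw [pos_zero]
  exact h.symm

theorem pos_ap1 (hy : pt z φ = y) : pos (ctr z y) φ 0 (0, 1) = pos (ctr z y) φ 0 (1, 2) := by
  have h := ctr_succ hy 0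
  have h1 := ev_sum φ 0
  rw [pos_zero, pos_zero]
  have h : ctr z y 1 = ctr z y 0 + ev φ 0 := h
  have h1 : ev φ 0 + ev φ 2 = ev φ 1 := h1
  rw [h, ← h1]; ring

theorem pos_ap5 (hy : pt z φ = y) : pos (ctr z y) φ 0 (0, 5) = pos (ctr z y) φ 0 (1, 4) := by
  have h := ctr_succ hy 0
  have h1 := ev_sum φ 4
  rw [pos_zero, pos_zero]
  have h : ctr z y 1 = ctr z y 0 + ev φ 0 := h
  have h1 : ev φ 4 + ev φ 0 = ev φ 5 := h1
  rw [h, ← h1]; ring

/-- no other slot of `S(z)` is `y`, no other slot of `S(y)` is `z` -/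
theorem pos_off (hy : pt z φ = y) {s : Fin 2 × Fin 6} (hs : ¬ spc s.1 s.2) :
    pos (ctr z y) φ 0 s ≠ ctr z y (s.1 + 1) := by
  obtain ⟨k, j⟩ := s
  intro h
  rw [pos_zero, ctr_succ hy] at h
  have h1 := ev_inj (add_left_cancel h)
  apply hs
  have hk : k = 0 ∨ k = 1 := two_cases k
  rcases hk with rfl | rfl
  · exact Or.inl ⟨rfl, h1⟩
  · exact Or.inr ⟨rfl, h1⟩

/-- **The special time.** -/
theorem _root_.Vale.Agent.P032.H747.Pr.spq_of (P : Pr U T z y N π ty E) (hy : pt z φ = y)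
    {h h' : Col} (hsp : Sp π ty E (Pr.tau T z y φ 0) h h') (hh : h ∈ LC (XP T z y N π φ) 0)
    (hh' : h' ∈ RC (XP T z y N π φ) 0) :
    SpQ π ty E (Pr.tau T z y φ 0) (QQ T (ctr z y) N φ 0) h h' := by
  have hA := (P.lim (Or.inl hh)).2
  have hA' := (P.lim (Or.inr hh')).2
  have hQ : ∀ s, QQ T (ctr z y) N φ 0 s = H93.nm N (T (pos (ctr z y) φ 0 s)) := fun _ => rfl
  refine
    { sp := hsp
      pal := ?_
      low := ?_
      full := ?_
      atY := by rw [hQ, pos_y hy]; exact nm_ctr P 1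
      atZ := by rw [hQ, pos_z hy]; exact nm_ctr P 0
      ap1 := by rw [hQ, hQ, pos_ap1 hy]
      ap5 := by rw [hQ, hQ, pos_ap5 hy]
      nsub := fun s m h3 => nsub_q P (nb_dist P φ 0 m s) h3
      third := fun s m m' h3 h3' h2 hne hne3 => ?_
      cen := fun s m h3 h3' h2 hne hne3 => ?_ }
  · rintro ⟨k, j⟩ i hi
    rw [hQ, mem_nm]
    rcases Finset.mem_union.1 hi with hi | hi
    · exact P.mem_T (hA k j) hi
    · exact P.mem_T (hA' k j) hi
  · rintro ⟨k, j⟩ hs hτ
    rw [card_QQ P]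
    have h1 := Pr.tau_false.1 hτ
    have h2 := pos_off hy hs
    have hk : k = 0 ∨ k = 1 := two_cases k
    rcases hk with rfl | rfl
    · exact (P.pz _ (dist_pos (ctr z y) φ 0 (0, j)) h2).resolve_right h1
    · exact (P.py _ (dist_pos (ctr z y) φ 0 (1, j)) h2).resolve_right h1
  · rintro ⟨k, j⟩ hτ
    have h1 : T (pos (ctr z y) φ 0 (k, j)) = T (ctr z y k) := Pr.tau_true.1 hτ
    rw [hQ, h1]
    exact nm_ctr P k
  · have e1 := pos_nb hy m s
    have e2 := pos_nb hy m' s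
    refine third_q P (nb_dist P φ 0 m s) h3 h3' h2 (nb_dist P φ 0 m' s) ?_ ?_
    · rw [e1, e2]
      exact fun h => hne (ev_inj (add_left_cancel h))
    · rw [e1, e2]
      intro h
      apply hne3
      apply ev_inj (φ := φ)
      rw [ev_add3]
      linear_combination h
  · have e1 := pos_nb hy m s
    obtain ⟨k, j⟩ := s
    have e2 : ctr z y k = pos (ctr z y) φ 0 (k, j) + ev φ (j + 3) := ctr_pos j k
    have h4 := third_q P (nb_dist P φ 0 m (k, j)) h3 h3' h2 (v := ctr z y k)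
      (dist_pos (ctr z y) φ 0 (k, j)) ?_ ?_
    · rw [nm_ctr P] at h4
      exact h4
    · rw [e1]
      intro h
      rw [e2] at h
      exact hne3 (ev_inj (add_left_cancel h)).symm
    · rw [e1]
      intro h
      rw [e2, ev_add3] at h
      exact hne (ev_inj (φ := φ) (by linear_combination h))

/-- **The special time.** -/
theorem _root_.Vale.Agent.P032.H747.Pr.spq (P : Pr U T z y N π ty E) (hy : pt z φ = y) :
    ∀ h ∈ LC (XP T z y N π φ) 0, ∀ h' ∈ RC (XP T z y N π φ) 0,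
      SpQ π ty E (Pr.tau T z y φ 0) (QQ T (ctr z y) N φ 0) h h' := fun h hh h' hh' =>
  P.spq_of hy (P.sp hy h hh h' hh') hh hh'

/-- **The third colour and the centre at a time which is not special.** -/
theorem _root_.Vale.Agent.P032.H747.Pr.cenQ (P : Pr U T z y N π ty E) (hy : pt z φ = y)
    (hu : u ∈ Ioo (0 : ℝ) 1) : CenQ π (QQ T (ctr z y) N φ u) := by
  intro s m h3 h3' h2
  obtain ⟨k, j⟩ := s
  have hm : m = 2 ∨ (nb m (k, j)).1 = k := by
    have : ∀ (m : Fin 3) (s : Fin 2 × Fin 6), m = 2 ∨ (nb m s).1 = s.1 := by decide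
    exact this m (k, j)
  have hkey : ctr z y k ≠ pos (ctr z y) φ u (nb m (k, j)) ∧
      ctr z y k + pos (ctr z y) φ u (nb m (k, j)) ≠ 2 * pos (ctr z y) φ u (k, j) := by
    rcases hm with rfl | hm
    · have e : pos (ctr z y) φ u (nb 2 (k, j)) = ctr z y (k + 1) +
          (pos (ctr z y) φ u (k, j) - ctr z y k) := pos_side (ctr z y) φ u k (k + 1) j
      have hkk' : ∀ k : Fin 2, 1 - k = k + 1 := by decide
      have hkk := hkk' k
      have f0 := pp_ne (w := z) hy hu k (j.val : ℤ)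
      have f3 := pp_ne (w := z) hy hu k ((j.val : ℤ) + 3)
      have e0 : pt (ctr z y k) (φ + u + (((j.val : ℤ)) : ℝ)) = pos (ctr z y) φ u (k, j) := by
        show _ = pt (ctr z y k) (φ + u + (j.val : ℝ))
        congr 1
      have e3 : pt (ctr z y k) (φ + u + (((j.val : ℤ) + 3 : ℤ) : ℝ)) =
          2 * ctr z y k - pos (ctr z y) φ u (k, j) := by
        have h5 := pt_three (ctr z y k) (φ + u + (j.val : ℝ))
        have h6 : φ + u + (((j.val : ℤ) + 3 : ℤ) : ℝ) = φ + u + (j.val : ℝ) + 3 := by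
          push_cast; ring
        rw [h6, h5]; rfl
      rw [e0, hkk] at f0
      rw [e3, hkk] at f3
      rw [e]
      exact ⟨fun h => f3 (by linear_combination h), fun h => f0 (by linear_combination -h)⟩
    · have hq : dist (pos (ctr z y) φ u (nb m (k, j))) (ctr z y k) = 1 := by
        have := dist_pos (ctr z y) φ u (nb m (k, j))
        rwa [hm] at this
      exact tri (dist_pos (ctr z y) φ u (k, j)) hq
  have h4 := third_q P (nb_dist P φ u m (k, j)) h3 h3' h2 (v := ctr z y k)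
    (dist_pos (ctr z y) φ u (k, j)) hkey.1 hkey.2
  rw [nm_ctr P] at h4
  exact h4

/-- **Contradiction from a class function, with palettes.** -/
theorem _root_.Vale.Agent.P032.H747.Pr.false_ofQ (P : Pr U T z y N π ty E) {σ : Type*}
    (lab : Col → σ)
    (hEv : ∀ τ Q h h', EvQ π ty E τ Q h h' → CenQ π Q → lab h = lab h')
    (hSp : ∀ τ Q h h', SpQ π ty E τ Q h h' → lab h' ≠ lab (rot h)) : False := by
  obtain ⟨θ, hθ⟩ := exists_cis (u := y - z) (by rw [← dist_eq_norm]; exact P.zy)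
  have hpi : Real.pi / 3 ≠ 0 := by positivity
  have hφ : pt z (θ / (Real.pi / 3)) = y := by
    unfold pt
    rw [div_mul_cancel₀ _ hpi, ← hθ]; ring
  generalize θ / (Real.pi / 3) = φ at hφ
  have w := P.sw (φ := φ)
  obtain ⟨h, hh⟩ := w.LC_ne 0
  obtain ⟨h', hh'⟩ := w.RC_ne 0
  have h1 := w.turn (σ := rt (Fin 2)) (fun s l u => Xl_per s l u)
    (R := fun g g' => lab g = lab g') (fun _ _ _ h1 h2 => h1.trans h2) 0
    (fun u hu g hg g' hg' => by
      have hu : u ∈ Ioo (0 : ℝ) 1 := by simpa using hu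
      exact hEv _ _ _ _ (P.evQ hφ u hu g hg g' hg') (P.cenQ hφ hu)) h hh h' hh'
  exact hSp _ _ _ _ (P.spq hφ h hh h' hh') h1

end Vale.Agent.P032.H306
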